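import Vale.Agent.P097.H128.Sector.Defs2

/-! # P097 / sector row SEC-I: gluing of the local meromorphic extensions

Owner: helper158. -/

set_option linter.all false

open Complex Metric Filter Topology Set

namespace Vale.Agent.P097.H158

open Vale.Agent.P097.TA Vale.Agent.P097.H202 Vale.Agent.P097.SC

/-- the quotient presentation of the extension on the ball of radius `ρ` around `x + b i` -/
def Ext (b : ℝ) (g : ℂ → ℂ) (x ρ : ℝ) (q : Polynomial ℂ) (F : ℂ → ℂ) : Prop :=
  q ≠ 0 ∧ DifferentiableOn ℂ F (ball ((x : ℂ) + b * I) ρ) ∧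
    ∀ t ∈ ball ((x : ℂ) + b * I) ρ, t ∈ Str b → F t = q.eval t * g t

def HasExt (b : ℝ) (g : ℂ → ℂ) (x ρ : ℝ) : Prop := ∃ (q : Polynomial ℂ) (F : ℂ → ℂ), Ext b g x ρ q F

theorem HasExt.mono {b : ℝ} {g : ℂ → ℂ} {x x' ρ ρ' : ℝ} (h : HasExt b g x ρ)
    (hle : |x' - x| + ρ' ≤ ρ) : HasExt b g x' ρ' := by
  obtain ⟨q, F, h1, h2, h3⟩ := h
  have hsub : ball ((x' : ℂ) + b * I) ρ' ⊆ ball ((x : ℂ) + b * I) ρ := by
    refine ball_subset_ball' ?_
    have e : dist ((x' : ℂ) + b * I) ((x : ℂ) + b * I) = |x' - x| := by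
      rw [dist_add_right, Complex.dist_eq, ← Complex.ofReal_sub, Complex.norm_real,
        Real.norm_eq_abs]
    rw [e]
    linarith
  exact ⟨q, F, h1, h2.mono hsub, fun t ht => h3 t (hsub ht)⟩

theorem per_int {b : ℝ} {g : ℂ → ℂ} (hper : ∀ z ∈ Str b, g (z + 1) = g z) (n : ℤ) :
    ∀ z ∈ Str b, g (z + n) = g z := by
  have hS : ∀ (z : ℂ) (m : ℤ), z ∈ Str b → z + m ∈ Str b := by
    intro z m hz
    have : |z.im| < b := hz
    show |(z + m).im| < b
    simpa using this
  have hnat : ∀ n : ℕ, ∀ z ∈ Str b, g (z + n) = g z := by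
    intro n
    induction n with
    | zero => intro z _; simp
    | succ n ih =>
      intro z hz
      have h1 := hper (z + n) (by simpa using hS z n hz)
      rw [ih z hz] at h1
      rw [← h1]
      congr 1
      push_cast
      ring
  obtain ⟨m, rfl | rfl⟩ := n.eq_nat_or_neg
  · intro z hz
    simpa using hnat m z hz
  · intro z hz
    have h1 := hnat m (z + ((-(m : ℤ) : ℤ) : ℂ)) (hS z _ hz)
    rw [← h1]
    congr 1
    push_cast
    ring

theorem HasExt.trans {b : ℝ} {g : ℂ → ℂ} {x ρ : ℝ} (hper : ∀ z ∈ Str b, g (z + 1) = g z)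
    (h : HasExt b g x ρ) (n : ℤ) : HasExt b g (x + n) ρ := by
  obtain ⟨q, F, h1, h2, h3⟩ := h
  have hmem : ∀ t : ℂ, t ∈ ball (((x + n : ℝ) : ℂ) + b * I) ρ → t - n ∈ ball ((x : ℂ) + b * I) ρ := by
    intro t ht
    rw [mem_ball, Complex.dist_eq] at ht ⊢
    have e : t - n - ((x : ℂ) + b * I) = t - (((x + n : ℝ) : ℂ) + b * I) := by
      push_cast
      ring
    rw [e]
    exact ht
  refine ⟨q.comp (Polynomial.X - Polynomial.C (n : ℂ)), fun t => F (t - n), ?_, ?_, ?_⟩
  · intro h0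
    apply h1
    have h4 : (q.comp (Polynomial.X - Polynomial.C (n : ℂ))).comp
        (Polynomial.X + Polynomial.C (n : ℂ)) = q := by
      rw [Polynomial.comp_assoc]
      simp
    rw [h0, Polynomial.zero_comp] at h4
    exact h4.symm
  · intro t ht
    have h5 := h2 (t - n) (hmem t ht)
    have h6 : DifferentiableAt ℂ F (t - n) := h5.differentiableAt (isOpen_ball.mem_nhds (hmem t ht))
    have h7 : DifferentiableAt ℂ (fun t : ℂ => t - (n : ℂ)) t := by fun_prop
    exact (DifferentiableAt.comp t h6 h7).differentiableWithinAt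
  · intro t ht hts
    have hts' : t - n ∈ Str b := by
      have : |t.im| < b := hts
      show |(t - n).im| < b
      simpa using this
    have h8 := h3 (t - n) (hmem t ht) hts'
    have h9 := per_int hper n (t - n) hts'
    rw [sub_add_cancel] at h9
    show F (t - n) = _
    rw [h8, ← h9]
    simp

/-- the local step -/
theorem hasExt_of_LExt {b : ℝ} {g : ℂ → ℂ} (hg : DifferentiableOn ℂ g (Str b)) {x : ℝ}
    (h : LExt b g x) : ∃ ρ > 0, HasExt b g x ρ := by
  obtain ⟨R, R', q, F, hR, hRb, hRR, hq, hF, hFg⟩ := h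
  set c : ℂ := (x : ℂ) + (b - R : ℝ) * I with hc
  have hcx : dist ((x : ℂ) + b * I) c = R := by
    rw [Complex.dist_eq]
    have e : (x : ℂ) + b * I - c = (R : ℝ) * I := by
      rw [hc]
      push_cast
      ring
    rw [e, norm_mul, Complex.norm_I, mul_one, Complex.norm_real, Real.norm_of_nonneg hR.le]
  have hsub : ball ((x : ℂ) + b * I) (R' - R) ⊆ ball c R' := by
    refine ball_subset_ball' ?_
    rw [hcx]
    linarith
  refine ⟨R' - R, by linarith, q, F, hq, hF.mono hsub, ?_⟩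
  have hcim : c.im = b - R := by
    rw [hc]
    simp
  have hcS : c ∈ Str b := by
    show |c.im| < b
    rw [hcim, abs_lt]
    constructor <;> linarith
  have hop : IsOpen (ball c R' ∩ Str b) := isOpen_ball.inter (isOpen_Str b)
  have hconv : Convex ℝ (ball c R' ∩ Str b) := by
    refine (convex_ball c R').inter ?_
    have e : Str b = {z : ℂ | -b < z.im} ∩ {z : ℂ | z.im < b} := by
      ext z
      show |z.im| < b ↔ _
      rw [abs_lt]
      rfl
    rw [e]
    exact (convex_halfSpace_im_gt _).inter (convex_halfSpace_im_lt _)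
  have hA1 : AnalyticOnNhd ℂ F (ball c R' ∩ Str b) :=
    (hF.mono inter_subset_left).analyticOnNhd hop
  have hA2 : AnalyticOnNhd ℂ (fun t => q.eval t * g t) (ball c R' ∩ Str b) := by
    refine DifferentiableOn.analyticOnNhd ?_ hop
    exact (q.differentiable.differentiableOn).mul (hg.mono inter_subset_right)
  have hev : F =ᶠ[𝓝 c] fun t => q.eval t * g t := by
    filter_upwards [ball_mem_nhds c hR] with t ht
    exact hFg t ht
  have hEq := hA1.eqOn_of_preconnected_of_eventuallyEq hA2 hconv.isPreconnected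
    ⟨mem_ball_self (by linarith), hcS⟩ hev
  intro t ht hts
  exact hEq ⟨hsub ht, hts⟩

/-- uniform radius -/
theorem exists_unif {b : ℝ} {g : ℂ → ℂ} (hg : DifferentiableOn ℂ g (Str b))
    (hper : ∀ z ∈ Str b, g (z + 1) = g z) (hL : ∀ x : ℝ, LExt b g x) :
    ∃ ρ > 0, ∀ x : ℝ, HasExt b g x ρ := by
  have hK : ∃ ρ > 0, ∀ x ∈ Icc (0 : ℝ) 1, HasExt b g x ρ := by
    refine (isCompact_Icc (a := (0 : ℝ)) (b := 1)).induction_on
      (p := fun s => ∃ ρ > 0, ∀ x ∈ s, HasExt b g x ρ) ?_ ?_ ?_ ?_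
    · exact ⟨1, one_pos, fun x hx => absurd hx (Set.notMem_empty x)⟩
    · rintro s t hst ⟨ρ, h0, h1⟩
      exact ⟨ρ, h0, fun x hx => h1 x (hst hx)⟩
    · rintro s t ⟨ρ, h0, h1⟩ ⟨ρ', h0', h1'⟩
      refine ⟨min ρ ρ', lt_min h0 h0', ?_⟩
      rintro x (hx | hx)
      · exact (h1 x hx).mono (by simp)
      · exact (h1' x hx).mono (by simp)
    · intro x _
      obtain ⟨ρ, h0, h1⟩ := hasExt_of_LExt hg (hL x)
      refine ⟨ball x (ρ / 2), mem_nhdsWithin_of_mem_nhds (ball_mem_nhds x (by positivity)),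
        ρ / 2, by positivity, fun x' hx' => h1.mono ?_⟩
      rw [mem_ball, Real.dist_eq] at hx'
      linarith
  obtain ⟨ρ, h0, h1⟩ := hK
  refine ⟨ρ, h0, fun x => ?_⟩
  have h2 := (h1 (Int.fract x) ⟨Int.fract_nonneg x, (Int.fract_lt_one x).le⟩).trans hper ⌊x⌋
  rwa [Int.fract_add_floor] at h2

/-- **SEC-I** -/
theorem secI : SecI := by
  intro b g hb hg hper hL
  obtain ⟨ρ₀, hρ₀, hE₀⟩ := exists_unif hg hper hL
  set ρ : ℝ := min ρ₀ b with hρdef
  have hρ : 0 < ρ := lt_min hρ₀ hb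
  have hρb : ρ ≤ b := min_le_right _ _
  have hE : ∀ x : ℝ, HasExt b g x ρ := fun x => (hE₀ x).mono (by simp [hρdef])
  choose q F hq hF hFg using hE
  classical
  -- the glued function
  let Q : ℝ → ℂ → ℂ := fun x z => F x z / (q x).eval z
  let G : ℂ → ℂ := fun z => if z ∈ Str b then g z else limUnder (𝓝[≠] z) (Q z.re)
  have hGdef : ∀ z, G z = if z ∈ Str b then g z else limUnder (𝓝[≠] z) (Q z.re) := fun z => rfl
  refine ⟨ρ, G, hρ, ?_, fun z hz => by rw [hGdef, if_pos hz]⟩
  -- compatibility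
  have hcomp : ∀ (x x' : ℝ) (z : ℂ), z ∈ ball ((x : ℂ) + b * I) ρ → z ∈ ball ((x' : ℂ) + b * I) ρ →
      (fun z => F x z * (q x').eval z) =ᶠ[𝓝 z] fun z => F x' z * (q x).eval z := by
    intro x x' z hz hz'
    set U : Set ℂ := ball ((x : ℂ) + b * I) ρ ∩ ball ((x' : ℂ) + b * I) ρ with hU
    have hop : IsOpen U := isOpen_ball.inter isOpen_ball
    have hconv : Convex ℝ U := (convex_ball _ _).inter (convex_ball _ _)
    have hA1 : AnalyticOnNhd ℂ (fun z => F x z * (q x').eval z) U :=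
      (((hF x).mono inter_subset_left).mul ((q x').differentiable.differentiableOn)).analyticOnNhd
        hop
    have hA2 : AnalyticOnNhd ℂ (fun z => F x' z * (q x).eval z) U :=
      (((hF x').mono inter_subset_right).mul ((q x).differentiable.differentiableOn)).analyticOnNhd
        hop
    -- a point below the line
    have hre : ∀ y : ℝ, z ∈ ball ((y : ℂ) + b * I) ρ → (z.re - y) ^ 2 < ρ ^ 2 := by
      intro y hy
      rw [mem_ball, Complex.dist_eq] at hy
      have h1 := abs_re_le_norm (z - ((y : ℂ) + b * I))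
      have h2 : (z - ((y : ℂ) + b * I)).re = z.re - y := by simp
      rw [h2] at h1
      have h3 : |z.re - y| < ρ := lt_of_le_of_lt h1 hy
      exact sq_lt_sq' (abs_lt.1 h3).1 (abs_lt.1 h3).2
    have hpt : ∀ (y η : ℝ), 0 ≤ η → η ^ 2 < ρ ^ 2 - (z.re - y) ^ 2 →
        ((z.re : ℂ) + (b - η : ℝ) * I) ∈ ball ((y : ℂ) + b * I) ρ := by
      intro y η h0 h1
      rw [mem_ball, Complex.dist_eq]
      have e : (z.re : ℂ) + (b - η : ℝ) * I - ((y : ℂ) + b * I) =
          ((z.re - y : ℝ) : ℂ) + ((-η : ℝ) : ℂ) * I := by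
        push_cast
        ring
      rw [e, ← sq_lt_sq₀ (norm_nonneg _) hρ.le, ← Complex.normSq_eq_norm_sq,
        Complex.normSq_add_mul_I]
      nlinarith
    obtain ⟨η, hη0, hη1, hη2, hη3⟩ : ∃ η : ℝ, 0 < η ∧ η ^ 2 < ρ ^ 2 - (z.re - x) ^ 2 ∧
        η ^ 2 < ρ ^ 2 - (z.re - x') ^ 2 ∧ η < 2 * b := by
      have h1 := hre x hz
      have h2 := hre x' hz'
      have c1 : Tendsto (fun η : ℝ => η ^ 2) (𝓝[>] 0) (𝓝 0) := by
        have : Tendsto (fun η : ℝ => η ^ 2) (𝓝 0) (𝓝 (0 ^ 2)) := (continuous_pow 2).tendsto 0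
        rw [zero_pow two_ne_zero] at this
        exact this.mono_left nhdsWithin_le_nhds
      have e1 := c1.eventually (gt_mem_nhds (sub_pos.2 h1))
      have e2 := c1.eventually (gt_mem_nhds (sub_pos.2 h2))
      have e3 : ∀ᶠ η : ℝ in 𝓝[>] 0, η < 2 * b :=
        (nhdsWithin_le_nhds) (gt_mem_nhds (by linarith))
      have e0 : ∀ᶠ η : ℝ in 𝓝[>] 0, 0 < η := self_mem_nhdsWithin
      obtain ⟨η, h3, h4, h5, h6⟩ := (e0.and (e1.and (e2.and e3))).exists
      exact ⟨η, h3, h4, h5, h6⟩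
    set y : ℂ := (z.re : ℂ) + (b - η : ℝ) * I with hy
    have hyU : y ∈ U := ⟨hpt x η hη0.le hη1, hpt x' η hη0.le hη2⟩
    have hyS : y ∈ Str b := by
      show |y.im| < b
      have e : y.im = b - η := by
        rw [hy]
        simp
      rw [e, abs_lt]
      constructor <;> linarith
    have hev : (fun z => F x z * (q x').eval z) =ᶠ[𝓝 y] fun z => F x' z * (q x).eval z := by
      filter_upwards [hop.mem_nhds hyU, (isOpen_Str b).mem_nhds hyS] with t ht hts
      show F x t * (q x').eval t = F x' t * (q x).eval t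
      rw [hFg x t ht.1 hts, hFg x' t ht.2 hts]
      ring
    have hEq := hA1.eqOn_of_preconnected_of_eventuallyEq hA2 hconv.isPreconnected hyU hev
    filter_upwards [hop.mem_nhds ⟨hz, hz'⟩] with t ht
    exact hEq ht
  -- the polynomials do not vanish near a point
  have hqne : ∀ (x : ℝ) (z : ℂ), ∀ᶠ t in 𝓝[≠] z, (q x).eval t ≠ 0 := by
    intro x z
    have h1 : AnalyticOnNhd ℂ (fun t => (q x).eval t) univ :=
      fun t _ => (q x).differentiable.analyticAt t
    rcases (h1 z (mem_univ z)).eventually_eq_zero_or_eventually_ne_zero with h2 | h2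
    · exfalso
      apply hq x
      have h3 := h1.eqOn_zero_of_preconnected_of_eventuallyEq_zero isPreconnected_univ
        (mem_univ z) h2
      exact Polynomial.funext fun t => by simpa using h3 (mem_univ t)
    · exact h2
  intro z₀ hz₀
  have hz1 : -b < z₀.im := hz₀.1
  have hz2 : z₀.im < b + ρ := hz₀.2
  by_cases hzS : z₀ ∈ Str b
  · have h1 : AnalyticAt ℂ g z₀ := (hg.analyticOnNhd (isOpen_Str b)) z₀ hzS
    refine h1.meromorphicAt.congr ?_
    refine Filter.EventuallyEq.filter_mono ?_ nhdsWithin_le_nhds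
    filter_upwards [(isOpen_Str b).mem_nhds hzS] with t ht
    rw [hGdef, if_pos ht]
  have hzb : b ≤ z₀.im := by
    by_contra h
    push Not at h
    exact hzS (abs_lt.2 ⟨hz1, h⟩)
  -- membership of `t` in the ball over `t.re`
  have hown : ∀ t : ℂ, |t.im - b| < ρ → t ∈ ball ((t.re : ℂ) + b * I) ρ := by
    intro t ht
    rw [mem_ball, Complex.dist_eq]
    have e : t - ((t.re : ℂ) + b * I) = ((t.im - b : ℝ) : ℂ) * I := by
      apply Complex.ext <;> simp
    rw [e, norm_mul, Complex.norm_I, mul_one, Complex.norm_real, Real.norm_eq_abs]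
    exact ht
  have hz₀' : |z₀.im - b| < ρ := by
    rw [abs_lt]
    constructor <;> linarith
  set x₀ : ℝ := z₀.re with hx₀
  have hz₀U : z₀ ∈ ball ((x₀ : ℂ) + b * I) ρ := hown z₀ hz₀'
  have hmer : MeromorphicAt (Q x₀) z₀ := by
    have h1 : AnalyticAt ℂ (F x₀) z₀ := ((hF x₀).analyticOnNhd isOpen_ball) z₀ hz₀U
    have h2 : AnalyticAt ℂ (fun t => (q x₀).eval t) z₀ := (q x₀).differentiable.analyticAt z₀
    exact h1.meromorphicAt.div h2.meromorphicAt
  refine hmer.congr ?_
  have hop1 : ∀ᶠ t in 𝓝 z₀, |t.im - b| < ρ := by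
    have c : Continuous fun t : ℂ => |t.im - b| := by fun_prop
    exact c.continuousAt.eventually (gt_mem_nhds hz₀')
  have hop2 : ∀ᶠ t in 𝓝 z₀, t ∈ ball ((x₀ : ℂ) + b * I) ρ := isOpen_ball.mem_nhds hz₀U
  filter_upwards [nhdsWithin_le_nhds hop1, nhdsWithin_le_nhds hop2, hqne x₀ z₀] with t h1 h2 h3
  rw [hGdef]
  by_cases hts : t ∈ Str b
  · rw [if_pos hts]
    show F x₀ t / (q x₀).eval t = g t
    rw [hFg x₀ t h2 hts, mul_div_cancel_left₀ _ h3]
  · rw [if_neg hts]
    -- the germ of the quotient at `t`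
    have h4 := hcomp t.re x₀ t (hown t h1) h2
    have h5 : Q t.re =ᶠ[𝓝[≠] t] Q x₀ := by
      filter_upwards [nhdsWithin_le_nhds h4, hqne t.re t, hqne x₀ t] with s h6 h7 h8
      show F t.re s / (q t.re).eval s = F x₀ s / (q x₀).eval s
      rw [div_eq_div_iff h7 h8]
      exact h6
    have h6 : ContinuousAt (Q x₀) t := by
      have h7 : ContinuousAt (F x₀) t :=
        ((hF x₀).differentiableAt (isOpen_ball.mem_nhds h2)).continuousAt
      exact h7.div (q x₀).continuous.continuousAt h3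
    have h7 : Tendsto (Q t.re) (𝓝[≠] t) (𝓝 (Q x₀ t)) :=
      (h6.tendsto.mono_left nhdsWithin_le_nhds).congr' h5.symm
    exact h7.limUnder_eq.symm

end Vale.Agent.P097.H158
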