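import Vale.Agent.P097.H128.Sector.Defs2

/-! # P097 / sector rows SEC-P (the sector domains are preconnected) and SEC-F (FCT on them)

Owner: helper158. -/

set_option linter.all false

open Complex Metric Filter Topology Set

namespace Vale.Agent.P097.H158

open Vale.Agent.P097.TA Vale.Agent.P097.H202 Vale.Agent.P097.H456.Fct Vale.Agent.P097.SC

theorem Om_of_real {a b β δ : ℝ} (hδ : δ < b) {z : ℂ} (hz : z.im = 0) : z ∈ Om a b β δ := by
  left
  show |z.im| < b - δ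
  rw [hz, abs_zero]
  linarith

/-- `Om` is invariant under the contraction of the imaginary part -/
theorem Om_contract {a b β δ : ℝ} (hβ : 0 < β) (hδ0 : 0 < δ) (hδ : δ < b) {z z' : ℂ} {l : ℝ}
    (h0 : 0 ≤ l) (h1 : l ≤ 1) (hz : z ∈ Om a b β δ) (hre : z'.re = z.re)
    (him : z'.im = l * z.im) : z' ∈ Om a b β δ := by
  rcases hz with hz | ⟨h2, h3, n, hn⟩
  · left
    show |z'.im| < b - δ
    have h4 : |z.im| < b - δ := hz
    rw [him, abs_mul, abs_of_nonneg h0]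
    have h5 : l * |z.im| ≤ 1 * |z.im| := mul_le_mul_of_nonneg_right h1 (abs_nonneg _)
    linarith
  · right
    refine ⟨?_, ?_, n, by rw [hre]; exact hn⟩
    · rw [him]
      rcases le_total 0 z.im with h | h
      · have : 0 ≤ l * z.im := mul_nonneg h0 h
        linarith
      · have : 1 * z.im ≤ l * z.im := mul_le_mul_of_nonpos_right h1 h
        linarith
    · rw [him]
      rcases le_total 0 z.im with h | h
      · have : l * z.im ≤ 1 * z.im := mul_le_mul_of_nonneg_right h1 h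
        linarith
      · have : l * z.im ≤ 0 := mul_nonpos_of_nonneg_of_nonpos h0 h
        linarith

theorem isOpen_Om (a b β δ : ℝ) : IsOpen (Om a b β δ) := by
  unfold Om
  refine IsOpen.union ?_ ?_
  · exact isOpen_lt (by fun_prop) (by fun_prop)
  · have e : {z : ℂ | -(b - δ) < z.im ∧ z.im < b + β ∧ ∃ n : ℤ, |z.re - a - n| < β} =
        ({z : ℂ | -(b - δ) < z.im} ∩ {z : ℂ | z.im < b + β}) ∩
          ⋃ n : ℤ, {z : ℂ | |z.re - a - n| < β} := by
      ext z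
      simp only [mem_setOf_eq, mem_inter_iff, mem_iUnion]
      tauto
    rw [e]
    refine IsOpen.inter (IsOpen.inter ?_ ?_) (isOpen_iUnion fun n => ?_)
    · exact isOpen_lt (by fun_prop) (by fun_prop)
    · exact isOpen_lt (by fun_prop) (by fun_prop)
    · exact isOpen_lt (by fun_prop) (by fun_prop)

theorem Om_per {a b β δ : ℝ} {z : ℂ} (hz : z ∈ Om a b β δ) (m : ℤ) : z + m ∈ Om a b β δ := by
  rcases hz with hz | ⟨h2, h3, n, hn⟩
  · left
    show |(z + m).im| < b - δ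
    simpa using hz
  · right
    refine ⟨by simpa using h2, by simpa using h3, n + m, ?_⟩
    have e : (z + (m : ℂ)).re - a - ((n + m : ℤ) : ℝ) = z.re - a - n := by
      push_cast
      simp
      ring
    rw [e]
    exact hn

theorem isOpen_OmS {a b β δ r : ℝ} {S : Set ℕ} (hS : S.Finite) : IsOpen (OmS a b β δ r S) := by
  have e : OmS a b β δ r S = {u : ℂ × ℂ | ‖u.2‖ < r} ∩
      ⋂ j ∈ S, (fun u : ℂ × ℂ => u.1 + j * u.2) ⁻¹' Om a b β δ := by
    ext u
    simp only [OmS, mem_setOf_eq, mem_inter_iff, mem_iInter, mem_preimage]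
  rw [e]
  refine IsOpen.inter (isOpen_lt (by fun_prop) (by fun_prop)) ?_
  exact hS.isOpen_biInter fun j _ => (isOpen_Om a b β δ).preimage (by fun_prop)

/-- the contraction of a pair -/
def ctr (l : ℝ) (u : ℂ × ℂ) : ℂ × ℂ :=
  ((⟨u.1.re, l * u.1.im⟩ : ℂ), (⟨u.2.re, l * u.2.im⟩ : ℂ))

theorem ctr_mem {a b β δ r : ℝ} {S : Set ℕ} (hβ : 0 < β) (hδ0 : 0 < δ) (hδ : δ < b) {u : ℂ × ℂ}
    (hu : u ∈ OmS a b β δ r S) {l : ℝ} (h0 : 0 ≤ l) (h1 : l ≤ 1) : ctr l u ∈ OmS a b β δ r S := by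
  obtain ⟨h2, h3⟩ := hu
  refine ⟨?_, fun j hj => ?_⟩
  · refine lt_of_le_of_lt ?_ h2
    show ‖(⟨u.2.re, l * u.2.im⟩ : ℂ)‖ ≤ ‖u.2‖
    rw [← sq_le_sq₀ (norm_nonneg _) (norm_nonneg _), ← Complex.normSq_eq_norm_sq,
      ← Complex.normSq_eq_norm_sq, Complex.normSq_apply, Complex.normSq_apply]
    have : l * u.2.im * (l * u.2.im) ≤ u.2.im * u.2.im := by
      have h4 : l * l ≤ 1 := by nlinarith
      have h5 : 0 ≤ u.2.im * u.2.im := mul_self_nonneg _
      nlinarith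
    show u.2.re * u.2.re + l * u.2.im * (l * u.2.im) ≤ _
    linarith
  · refine Om_contract hβ hδ0 hδ h0 h1 (h3 j hj) ?_ ?_
    · simp [ctr]
    · simp [ctr]
      ring

theorem segment_ctr {u v : ℂ × ℂ} (hv : v ∈ segment ℝ u (ctr 0 u)) :
    ∃ l : ℝ, 0 ≤ l ∧ l ≤ 1 ∧ v = ctr l u := by
  obtain ⟨s, t, hs, ht, hst, rfl⟩ := hv
  refine ⟨s, hs, by linarith, ?_⟩
  have e : t = 1 - s := by linarith
  subst e
  refine Prod.ext (Complex.ext ?_ ?_) (Complex.ext ?_ ?_)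
  · simp [ctr]
    ring
  · simp [ctr]
  · simp [ctr]
    ring
  · simp [ctr]

/-- **SEC-P** -/
theorem secP : SecP := by
  intro a b β δ r S hβ hδ0 hδ hr
  have h00 : ((0 : ℂ), (0 : ℂ)) ∈ OmS a b β δ r S := by
    refine ⟨by simpa using hr, fun j _ => Om_of_real hδ (by simp)⟩
  refine isPreconnected_of_forall (0 : ℂ × ℂ) fun u hu => ?_
  refine ⟨segment ℝ (0 : ℂ × ℂ) (ctr 0 u) ∪ segment ℝ u (ctr 0 u), ?_, ?_, ?_, ?_⟩
  · rintro v (hv | hv)
    · obtain ⟨s, t, hs, ht, hst, rfl⟩ := hv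
      have ht1 : t ≤ 1 := by linarith
      have h2 := (ctr_mem hβ hδ0 hδ hu le_rfl zero_le_one).1
      refine ⟨?_, fun j _ => Om_of_real hδ (by simp [ctr])⟩
      have e : (s • (0 : ℂ × ℂ) + t • ctr 0 u).2 = t • (ctr 0 u).2 := by simp
      rw [e, norm_smul, Real.norm_of_nonneg ht]
      have : t * ‖(ctr 0 u).2‖ ≤ 1 * ‖(ctr 0 u).2‖ := mul_le_mul_of_nonneg_right ht1 (norm_nonneg _)
      linarith
    · obtain ⟨l, h0, h1, rfl⟩ := segment_ctr hv
      exact ctr_mem hβ hδ0 hδ hu h0 h1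
  · exact Or.inl (left_mem_segment ℝ _ _)
  · exact Or.inr (left_mem_segment ℝ _ _)
  · exact IsPreconnected.union (ctr 0 u) (right_mem_segment ℝ _ _) (right_mem_segment ℝ _ _)
      (convex_segment _ _).isPreconnected (convex_segment _ _).isPreconnected

theorem dom_OmS {a b β δ r : ℝ} {S : Set ℕ} (hS : S.Finite) (hβ : 0 < β) (hδ0 : 0 < δ) (hδ : δ < b)
    (hr : 0 < r) : H456.Fct.Dom (OmS a b β δ r S) where
  op := isOpen_OmS hS
  pc := secP a b β δ r S hβ hδ0 hδ hr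
  per := by
    intro u
    constructor
    · rintro ⟨h1, h2⟩
      refine ⟨h1, fun j hj => ?_⟩
      have := Om_per (h2 j hj) 1
      have e : u.1 + (j : ℂ) * u.2 + ((1 : ℤ) : ℂ) = u.1 + 1 + j * u.2 := by
        push_cast
        ring
      rw [e] at this
      exact this
    · rintro ⟨h1, h2⟩
      refine ⟨h1, fun j hj => ?_⟩
      have := Om_per (h2 j hj) (-1)
      have e : u.1 + 1 + (j : ℂ) * u.2 + ((-1 : ℤ) : ℂ) = u.1 + j * u.2 := by
        push_cast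
        ring
      rw [show ((u.1 + 1, u.2) : ℂ × ℂ).1 = u.1 + 1 from rfl,
        show ((u.1 + 1, u.2) : ℂ × ℂ).2 = u.2 from rfl, e] at this
      exact this
  re := fun t => ⟨by simpa using hr, fun j _ => Om_of_real hδ (by simp)⟩

theorem tendsto_shift (t : ℝ) (m : ℂ) : Tendsto (fun u : ℂ × ℂ => (u.1 + m * u.2, u.2))
    (𝓝 ((t : ℂ), (0 : ℂ))) (𝓝 ((t : ℂ), (0 : ℂ))) := by
  have c : Continuous fun u : ℂ × ℂ => (u.1 + m * u.2, u.2) := by fun_prop
  have := c.tendsto ((t : ℂ), (0 : ℂ))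
  simpa using this

/-- **SEC-F** -/
theorem secF : SecF := by
  intro hF κ Λ H Φ r e α p J T hna a b β δ r₁ αh ph hβ hδ0 hδ hr₁ hα hp heq n j hj
  have hD : H456.Fct.Dom (OmS a b β δ r₁ {0, n}) :=
    dom_OmS (Set.toFinite _) hβ hδ0 hδ hr₁
  have hev : ∀ (m : ℕ) (t : ℝ), ∀ᶠ u in 𝓝 ((t : ℂ), (0 : ℂ)),
      αh (u.1 + m * u.2, u.2) = nat α 1 m u ∧ ph (u.1 + m * u.2, u.2) = nat p 1 m u := by
    intro m t
    have h1 := (tendsto_shift t m).eventually (heq t).1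
    have h2 := (tendsto_shift t m).eventually (heq t).2
    filter_upwards [h1, h2] with u h3 h4
    refine ⟨?_, ?_⟩
    · rw [h3]
      simp [nat]
    · rw [h4]
      simp [nat]
  have hcomp : ∀ (m : ℕ), m ∈ ({0, n} : Set ℕ) → ∀ f : ℂ × ℂ → ℂ,
      AnalyticOnNhd ℂ f (Om a b β δ ×ˢ ball 0 r₁) →
      AnalyticOnNhd ℂ (fun u : ℂ × ℂ => f (u.1 + m * u.2, u.2)) (OmS a b β δ r₁ {0, n}) := by
    intro m hm f hf u hu
    have h1 : ((u.1 + m * u.2, u.2) : ℂ × ℂ) ∈ Om a b β δ ×ˢ ball (0 : ℂ) r₁ :=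
      ⟨hu.2 m hm, by simpa using hu.1⟩
    have h2 : AnalyticAt ℂ (fun u : ℂ × ℂ => ((u.1 + m * u.2, u.2) : ℂ × ℂ)) u :=
      (analyticAt_fst.add (analyticAt_const.mul analyticAt_snd)).prod analyticAt_snd
    exact AnalyticAt.comp' (hf _ h1) h2
  have hO : Outer (OmS a b β δ r₁ {0, n}) α p n (fun u => αh (u.1 + (0 : ℕ) * u.2, u.2))
      (fun u => ph (u.1 + (0 : ℕ) * u.2, u.2)) (fun u => αh (u.1 + n * u.2, u.2))
      (fun u => ph (u.1 + n * u.2, u.2)) :=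
    { ha0 := hcomp 0 (by simp) _ hα
      hq0 := hcomp 0 (by simp) _ hp
      han := hcomp n (by simp) _ hα
      hqn := hcomp n (by simp) _ hp
      eq := fun t => by
        filter_upwards [hev 0 t, hev n t] with u h1 h2
        exact ⟨h1.1, h1.2, h2.1, h2.2⟩ }
  obtain ⟨⟨F, G, hF1, hG1, hne, h1⟩, ⟨F', G', hF1', hG1', hne', h1'⟩⟩ := hF T hna hD hO j hj
  refine ⟨⟨F, G, hF1, hG1, hne, fun t => ?_⟩, ⟨F', G', hF1', hG1', hne', fun t => ?_⟩⟩
  · filter_upwards [h1 t, hev j t] with u h2 h3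
    rw [h3.1]
    exact h2
  · filter_upwards [h1' t, hev j t] with u h2 h3
    rw [h3.2]
    exact h2

end Vale.Agent.P097.H158
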