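import Vale.Agent.P097.H128.Sector.A3
import Vale.Agent.P097.H202.PenA5

/-! # P097 / REG-D: the curve at the points of the strip, the lines, the area form

Owner: helper158. -/

set_option linter.all false

open Complex Metric Filter Topology Set
open scoped ComplexConjugate

namespace Vale.Agent.P097.H158

open Vale.Agent.P097.TA Vale.Agent.P097.H202 Vale.Agent.P097.SC

section crv

variable {h : ℝ → ℝ} {κ ρ Λ L : ℝ} {H HH lam Φ : ℂ → ℂ} {l φ : ℝ → ℝ}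

theorem LD.dΦ_eq (D : LD h κ ρ Λ L H HH lam Φ l φ) {z : ℂ} (hz : z ∈ Str ρ) :
    deriv Φ z = Λ / lam (Φ z) := (D.dΦ z hz).deriv

theorem LD.dΦ_ne (D : LD h κ ρ Λ L H HH lam Φ l φ) {z : ℂ} (hz : z ∈ Str ρ) :
    deriv Φ z ≠ 0 := by
  rw [LD.dΦ_eq D hz]
  exact div_ne_zero (by exact_mod_cast D.Λ0.ne') (D.lam0 _ (D.Φm' hz))

theorem LD.Λ3_ne (D : LD h κ ρ Λ L H HH lam Φ l φ) : ((Λ : ℂ) ^ 3) ≠ 0 :=
  pow_ne_zero _ (by exact_mod_cast D.Λ0.ne')

theorem LD.hasDerivAt_q (D : LD h κ ρ Λ L H HH lam Φ l φ) {z : ℂ} (hz : z ∈ Str ρ) :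
    HasDerivAt (fun z => H (Φ z)) (deriv H (Φ z) * deriv Φ z) z := by
  have h1 : HasDerivAt H (deriv H (Φ z)) (Φ z) :=
    (D.dH.differentiableAt ((isOpen_Str κ).mem_nhds (D.Φm' hz))).hasDerivAt
  have h2 : HasDerivAt Φ (deriv Φ z) z := (D.dΦ z hz).differentiableAt.hasDerivAt
  exact h1.comp z h2

theorem LD.deriv_q (D : LD h κ ρ Λ L H HH lam Φ l φ) {z : ℂ} (hz : z ∈ Str ρ) :
    deriv (fun z => H (Φ z)) z = deriv H (Φ z) * deriv Φ z := (LD.hasDerivAt_q D hz).deriv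

theorem LD.wr (D : LD h κ ρ Λ L H HH lam Φ l φ) {z : ℂ} (hz : z ∈ Str ρ) :
    Wr Φ (fun z => H (Φ z)) z = (Λ : ℂ) ^ 3 := by
  have hop := isOpen_Str ρ
  have aΦ : AnalyticAt ℂ Φ z := (D.dΦ'.analyticOnNhd hop) z hz
  have h2 : HasDerivAt Φ (deriv Φ z) z := aΦ.differentiableAt.hasDerivAt
  have h3 : HasDerivAt (deriv Φ) (deriv (deriv Φ) z) z := aΦ.deriv.differentiableAt.hasDerivAt
  have aH : AnalyticAt ℂ H (Φ z) := (D.dH.analyticOnNhd (isOpen_Str κ)) _ (D.Φm' hz)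
  have h4 : HasDerivAt (deriv H) (deriv (deriv H) (Φ z)) (Φ z) :=
    aH.deriv.differentiableAt.hasDerivAt
  have h5 : HasDerivAt (fun z => deriv H (Φ z)) (deriv (deriv H) (Φ z) * deriv Φ z) z :=
    h4.comp z h2
  have h6 : HasDerivAt (fun z => deriv H (Φ z) * deriv Φ z)
      (deriv (deriv H) (Φ z) * deriv Φ z * deriv Φ z + deriv H (Φ z) * deriv (deriv Φ) z) z :=
    h5.mul h3
  have h7 : deriv (deriv fun z => H (Φ z)) z =
      deriv (deriv H) (Φ z) * deriv Φ z * deriv Φ z + deriv H (Φ z) * deriv (deriv Φ) z := by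
    have e : (deriv fun z => H (Φ z)) =ᶠ[𝓝 z] fun z => deriv H (Φ z) * deriv Φ z := by
      filter_upwards [hop.mem_nhds hz] with y hy using LD.deriv_q D hy
    rw [e.deriv_eq]
    exact h6.deriv
  rw [Wr, h7, LD.deriv_q D hz]
  have h8 : lam (Φ z) ≠ 0 := D.lam0 _ (D.Φm' hz)
  have h9 := D.lam3 _ (D.Φm' hz)
  have h10 : deriv Φ z * lam (Φ z) = Λ := by
    rw [LD.dΦ_eq D hz, div_mul_cancel₀ _ h8]
  rw [← h10]
  have e : deriv (deriv H) (Φ z) = lam (Φ z) ^ 3 - H (Φ z) := by rw [h9]; ring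
  rw [e]
  ring

theorem LD.crv (D : LD h κ ρ Λ L H HH lam Φ l φ) {z : ℂ} (hz : z ∈ Str ρ) :
    Crv Φ (fun z => H (Φ z)) ((Λ : ℂ) ^ 3) z where
  aΦ := (D.dΦ'.analyticOnNhd (isOpen_Str ρ)) z hz
  aq := by
    have h1 : DifferentiableOn ℂ (fun z => H (Φ z)) (Str ρ) := fun y hy =>
      (LD.hasDerivAt_q D hy).differentiableAt.differentiableWithinAt
    exact (h1.analyticOnNhd (isOpen_Str ρ)) z hz
  wr := by
    filter_upwards [(isOpen_Str ρ).mem_nhds hz] with y hy using LD.wr D hy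

/-- the lines at a phase point -/
theorem VI.line {r e : ℝ} {α p : ℂ → ℂ → ℂ} {J : ℂ → ℂ} {d c M : ℝ} {V : Set (ℂ × ℂ)}
    {τ ω : ℂ → ℂ → ℂ} (D : LD h κ ρ Λ L H HH lam Φ l φ) (W : VI κ Λ H Φ r e α p J d c M V τ ω)
    {θ η t w : ℂ} (hθ : θ ∈ Str ρ) (h : (t, w) ∈ WW 0 d d) (h1 : vP α t w = Φ θ)
    (h2 : vY α t w = deriv Φ θ * η) :
    α (t + w / 2) w = aL Φ 1 (θ, η) ∧ p (t + w / 2) w = qL Φ (fun z => H (Φ z)) 1 (θ, η) ∧
    α (t - w / 2) w = aL Φ (-1) (θ, η) ∧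
      p (t - w / 2) w = qL Φ (fun z => H (Φ z)) (-1) (θ, η) := by
  have hW := W.sub _ _ h
  have h3 := W.T.p_plus hW
  have h4 := W.T.p_minus hW
  rw [h1, h2] at h3 h4
  have h5 : vP α t w + vY α t w = α (t + w / 2) w := by
    rw [vP, vY]
    ring
  have h6 : vP α t w - vY α t w = α (t - w / 2) w := by
    rw [vP, vY]
    ring
  have h7 := NZ.mul_snc (deriv Φ θ * η)
  have h8 : deriv (fun z => H (Φ z)) θ = deriv H (Φ θ) * deriv Φ θ := LD.deriv_q D hθ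
  refine ⟨?_, ?_, ?_, ?_⟩
  · rw [← h5, h1, h2, aL]
    ring
  · rw [h3, qL, h8, ← h7]
    ring
  · rw [← h6, h1, h2, aL]
    ring
  · rw [h4, qL, h8, ← h7]
    ring

end crv

/-! ### the area form -/

theorem hasDerivAt_fst {f : ℂ × ℂ → ℂ} {v : ℂ × ℂ} (hf : AnalyticAt ℂ f v) :
    HasDerivAt (fun z => f (z, v.2)) (deriv (fun z => f (z, v.2)) v.1) v.1 := by
  have h1 : AnalyticAt ℂ (fun z : ℂ => ((z, v.2) : ℂ × ℂ)) v.1 :=
    analyticAt_id.prod analyticAt_const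
  have h2 : AnalyticAt ℂ (fun z => f (z, v.2)) v.1 := hf.comp_of_eq h1 rfl
  exact h2.differentiableAt.hasDerivAt

theorem hasDerivAt_snd {f : ℂ × ℂ → ℂ} {v : ℂ × ℂ} (hf : AnalyticAt ℂ f v) :
    HasDerivAt (fun z => f (v.1, z)) (deriv (fun z => f (v.1, z)) v.2) v.2 := by
  have h1 : AnalyticAt ℂ (fun z : ℂ => ((v.1, z) : ℂ × ℂ)) v.2 :=
    analyticAt_const.prod analyticAt_id
  have h2 : AnalyticAt ℂ (fun z => f (v.1, z)) v.2 := hf.comp_of_eq h1 rfl
  exact h2.differentiableAt.hasDerivAt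

/-- the derivative of `η snc (a η)` along a curve -/
theorem hasDerivAt_ms {a n : ℂ → ℂ} {a' n' z : ℂ} (ha : HasDerivAt a a' z)
    (hn : HasDerivAt n n' z) : ∃ m : ℂ,
      HasDerivAt (fun z => n z * NZ.snc (a z * n z)) (m * a' + Complex.cos (a z * n z) * n') z ∧
      a z * m = n z * Complex.cos (a z * n z) - n z * NZ.snc (a z * n z) := by
  have hs : HasDerivAt NZ.snc (deriv NZ.snc (a z * n z)) (a z * n z) :=
    (NZ.snc_an _).differentiableAt.hasDerivAt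
  have h1 : HasDerivAt (fun z => a z * n z) (a' * n z + a z * n') z := ha.mul hn
  have h2 : HasDerivAt (fun z => NZ.snc (a z * n z))
      (deriv NZ.snc (a z * n z) * (a' * n z + a z * n')) z := hs.comp z h1
  have h3 : HasDerivAt (fun z => n z * NZ.snc (a z * n z))
      (n' * NZ.snc (a z * n z) + n z * (deriv NZ.snc (a z * n z) * (a' * n z + a z * n'))) z :=
    hn.mul h2
  -- `u snc' u + snc u = cos u`
  have h4 : ∀ u : ℂ, NZ.snc u + u * deriv NZ.snc u = Complex.cos u := by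
    intro u
    have e1 : HasDerivAt (fun u => u * NZ.snc u) (1 * NZ.snc u + u * deriv NZ.snc u) u :=
      (hasDerivAt_id u).mul (NZ.snc_an u).differentiableAt.hasDerivAt
    have e2 : (fun u => u * NZ.snc u) = Complex.sin := funext NZ.mul_snc
    rw [e2] at e1
    have e3 := e1.unique (Complex.hasDerivAt_sin u)
    rw [← e3]
    ring
  have h5 := h4 (a z * n z)
  refine ⟨n z * (n z * deriv NZ.snc (a z * n z)), h3.congr_deriv ?_, ?_⟩
  · rw [← h5]
    ring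
  · rw [← h5]
    ring

/-- **the area form in the coordinates `(θ, w)`** -/
theorem dT_of {Φ q : ℂ → ℂ} {c : ℂ} {α p : ℂ → ℂ → ℂ} {J : ℂ → ℂ} {S : Set (ℂ × ℂ)}
    {T N : ℂ × ℂ → ℂ} {v : ℂ × ℂ} (hS : IsOpen S) (jα : JD α S) (jp : JD p S)
    (hJ : ∀ t w : ℂ, (t, w) ∈ S → br α p t w = J w) (hv : Crv Φ q c v.1)
    (aT : AnalyticAt ℂ T v) (aN : AnalyticAt ℂ N v) (hm : (T v + v.2 / 2, v.2) ∈ S)
    (eα : ∀ᶠ u in 𝓝 v, α (T u + u.2 / 2) u.2 = aL Φ 1 (u.1, N u))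
    (ep : ∀ᶠ u in 𝓝 v, p (T u + u.2 / 2) u.2 = qL Φ q 1 (u.1, N u)) :
    J v.2 * deriv (fun θ => T (θ, v.2)) v.1 =
      -c * (N v * NZ.snc (deriv Φ v.1 * N v)) * deriv (fun w => N (v.1, w)) v.2 := by
  obtain ⟨θ, w⟩ := v
  simp only at hv hm ⊢
  set Tx := deriv (fun θ => T (θ, w)) θ with hTx
  set Tw := deriv (fun w => T (θ, w)) w with hTw
  set Nx := deriv (fun θ => N (θ, w)) θ with hNx
  set Nw := deriv (fun w => N (θ, w)) w with hNw
  have dTx : HasDerivAt (fun θ => T (θ, w)) Tx θ := hasDerivAt_fst aT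
  have dTw : HasDerivAt (fun w => T (θ, w)) Tw w := hasDerivAt_snd aT
  have dNx : HasDerivAt (fun θ => N (θ, w)) Nx θ := hasDerivAt_fst aN
  have dNw : HasDerivAt (fun w => N (θ, w)) Nw w := hasDerivAt_snd aN
  -- the eventual identities along the two coordinate lines
  have t1 : Tendsto (fun z : ℂ => ((z, w) : ℂ × ℂ)) (𝓝 θ) (𝓝 (θ, w)) :=
    (Continuous.prodMk continuous_id continuous_const).tendsto θ
  have t2 : Tendsto (fun z : ℂ => ((θ, z) : ℂ × ℂ)) (𝓝 w) (𝓝 (θ, w)) :=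
    (Continuous.prodMk continuous_const continuous_id).tendsto w
  have eα1 := t1.eventually eα
  have eα2 := t2.eventually eα
  have ep1 := t1.eventually ep
  have ep2 := t2.eventually ep
  -- left hand sides
  have u1 : HasDerivAt (fun z => T (z, w) + w / 2) Tx θ := dTx.add_const _
  have u2 : HasDerivAt (fun z => T (θ, z) + z / 2) (Tw + 1 / 2) w :=
    dTw.add ((hasDerivAt_id w).div_const 2)
  have a1 := jα.hasDerivAt_comp hS u1 (hasDerivAt_const θ w) hm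
  have a2 := jα.hasDerivAt_comp hS u2 (hasDerivAt_id w) hm
  have p1 := jp.hasDerivAt_comp hS u1 (hasDerivAt_const θ w) hm
  have p2 := jp.hasDerivAt_comp hS u2 (hasDerivAt_id w) hm
  -- right hand sides
  have dΦ : HasDerivAt Φ (deriv Φ θ) θ := hv.aΦ.differentiableAt.hasDerivAt
  have dΦ1 : HasDerivAt (deriv Φ) (deriv (deriv Φ) θ) θ := hv.aΦ.deriv.differentiableAt.hasDerivAt
  have dq : HasDerivAt q (deriv q θ) θ := hv.aq.differentiableAt.hasDerivAt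
  have dq1 : HasDerivAt (deriv q) (deriv (deriv q) θ) θ := hv.aq.deriv.differentiableAt.hasDerivAt
  set n := N (θ, w) with hn
  set f1 := deriv Φ θ with hf1
  set f2 := deriv (deriv Φ) θ with hf2
  set q0 := q θ with hq0
  set q1 := deriv q θ with hq1
  set q2 := deriv (deriv q) θ with hq2
  have b1 : HasDerivAt (fun z => aL Φ 1 (z, N (z, w))) (f1 + (f2 * n + f1 * Nx)) θ := by
    have := dΦ.add ((dΦ1.mul dNx).const_mul (1 : ℂ))
    exact this.congr_deriv (by ring)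
  have b2 : HasDerivAt (fun z => aL Φ 1 (θ, N (θ, z))) (f1 * Nw) w := by
    have := ((dNw.const_mul f1).const_mul (1 : ℂ)).const_add (Φ θ)
    exact this.congr_deriv (by ring)
  obtain ⟨m1, g1, g1'⟩ := hasDerivAt_ms dΦ1 dNx
  obtain ⟨m2, g2, g2'⟩ := hasDerivAt_ms (hasDerivAt_const w f1) dNw
  have c1 : HasDerivAt (fun z => Complex.cos (deriv Φ z * N (z, w)))
      (-Complex.sin (f1 * n) * (f2 * n + f1 * Nx)) θ := (dΦ1.mul dNx).ccos
  have c2 : HasDerivAt (fun z => Complex.cos (f1 * N (θ, z)))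
      (-Complex.sin (f1 * n) * (f1 * Nw)) w := (dNw.const_mul f1).ccos
  have r1 : HasDerivAt (fun z => qL Φ q 1 (z, N (z, w)))
      (q1 * Complex.cos (f1 * n) + q0 * (-Complex.sin (f1 * n) * (f2 * n + f1 * Nx)) +
        1 * (q2 * (n * NZ.snc (f1 * n)) + q1 * (m1 * f2 + Complex.cos (f1 * n) * Nx))) θ :=
    (dq.mul c1).add ((dq1.mul g1).const_mul (1 : ℂ))
  have r2 : HasDerivAt (fun z => qL Φ q 1 (θ, N (θ, z)))
      (q0 * (-Complex.sin (f1 * n) * (f1 * Nw)) +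
        1 * (q1 * (m2 * 0 + Complex.cos (f1 * n) * Nw))) w :=
    (c2.const_mul q0).add ((g2.const_mul q1).const_mul (1 : ℂ))
  have E1 := a1.unique (b1.congr_of_eventuallyEq eα1)
  have E2 := a2.unique (b2.congr_of_eventuallyEq eα2)
  have E3 := p1.unique (r1.congr_of_eventuallyEq ep1)
  have E4 := p2.unique (r2.congr_of_eventuallyEq ep2)
  have hj := hJ _ _ hm
  rw [br] at hj
  have hs := NZ.mul_snc (f1 * n)
  have hw := hv.wr.self_of_nhds
  rw [Wr] at hw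
  simp only [id] at E2 E4
  set A := TA.dx α (T (θ, w) + w / 2) w with hA
  set B := TA.de α (T (θ, w) + w / 2) w with hB
  set C := TA.dx p (T (θ, w) + w / 2) w with hC
  set D := TA.de p (T (θ, w) + w / 2) w with hD
  linear_combination (-Tx) * hj + Tx * A * E4 - C * Tx * E2 +
    (q0 * (-Complex.sin (f1 * n) * (f1 * Nw)) +
        1 * (q1 * (m2 * 0 + Complex.cos (f1 * n) * Nw))) * E1 - f1 * Nw * E3
    - q1 * f2 * Nw * g1' + q0 * f1 ^ 2 * Nw * hs - Nw * n * NZ.snc (f1 * n) * hw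

end Vale.Agent.P097.H158
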